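import Vale.Agent.P181.R2.H959.FDefs

set_option autoImplicit false

open scoped TensorProduct

namespace Vale.Agent.P181.FR

open Vale.Agent.P181 Vale.Agent.P181.H280 Vale.Agent.P181.H54 MvPolynomial

universe u

section Gen

variable {M : Type u} [AddCommGroup M] [Module ℂ M]

lemma fac_ne (k : ℕ) : (Fintype.card (Equiv.Perm (Fin k)) : ℂ) ≠ 0 := by
  exact_mod_cast Fintype.card_ne_zero

/-- The diagonal values determine the element. -/
lemma pv_inj [Module.Finite ℂ M] {b : ℕ} (x : Sym[ℂ]^b M)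
    (hdiag : ∀ φ : Module.Dual ℂ M, symEval (fun _ => φ) x = 0) : x = 0 := by
  classical
  apply symEval_separates Set.univ Submodule.span_univ
  intro lam _
  have h1 := polar (symEvalM x) ⊤ (fun φ _ => hdiag φ) lam (fun _ => trivial)
  have h2 : ∀ π : Equiv.Perm (Fin b), symEvalM x (fun p => lam (π p)) = symEvalM x lam := by
    intro π
    have e : symEval (fun p => lam (π p)) = symEval lam (M := M) := by
      apply sym_hom_ext
      intro v
      rw [symEval_tprod, symEval_tprod, ← Equiv.sum_comp (Equiv.mulRight π)]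
      apply Finset.sum_congr rfl
      intro σ _
      rw [← Equiv.prod_comp π (fun i => lam i (v (σ i)))]
      rfl
    rw [symEvalM_apply, symEvalM_apply, e]
  rw [Finset.sum_congr rfl (fun π _ => h2 π), Finset.sum_const, nsmul_eq_mul,
    Finset.card_univ] at h1
  exact (mul_eq_zero.1 h1).resolve_left (fac_ne _)

/-- The diagonal values along a line are a polynomial. -/
lemma pv_line {b : ℕ} (x : Sym[ℂ]^b M) (φ ψ : Module.Dual ℂ M) :
    ∃ q : Polynomial ℂ, ∀ t : ℂ, q.eval t = symEval (fun _ => φ + t • ψ) x := by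
  classical
  refine ⟨∑ s : Finset (Fin b),
    Polynomial.C (symEvalM x (s.piecewise (fun _ => φ) (fun _ => ψ))) *
      Polynomial.X ^ (sᶜ).card, ?_⟩
  intro t
  rw [← symEvalM_apply]
  have h1 : (fun _ : Fin b => φ + t • ψ) =
      (fun _ : Fin b => φ) + t • (fun _ : Fin b => ψ) := rfl
  rw [h1, MultilinearMap.map_add_univ]
  simp only [Polynomial.eval_finsetSum, Polynomial.eval_mul, Polynomial.eval_C,
    Polynomial.eval_pow, Polynomial.eval_X]
  apply Finset.sum_congr rfl
  intro s _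
  have h2 : s.piecewise (fun _ : Fin b => φ) (t • (fun _ : Fin b => ψ)) =
      sᶜ.piecewise (fun i => t • (s.piecewise (fun _ : Fin b => φ) (fun _ => ψ)) i)
      (s.piecewise (fun _ => φ) (fun _ => ψ)) := by
    funext i
    by_cases hi : i ∈ s
    · simp [Finset.piecewise, hi]
    · simp [Finset.piecewise, hi]
  rw [h2, MultilinearMap.map_piecewise_smul]
  simp [mul_comm]

/-- Multiplication by an element of a symmetric power. -/
lemma exists_mul {b B : ℕ} (y : Sym[ℂ]^B M) :
    ∃ L : (Sym[ℂ]^b M) →ₗ[ℂ] (Sym[ℂ]^(b + B) M), ∀ (φ : Module.Dual ℂ M) (x : Sym[ℂ]^b M),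
      (Fintype.card (Equiv.Perm (Fin b)) : ℂ) * (Fintype.card (Equiv.Perm (Fin B)) : ℂ) *
        symEval (fun _ => φ) (L x) =
      (Fintype.card (Equiv.Perm (Fin (b + B))) : ℂ) *
        (symEval (fun _ => φ) y * symEval (fun _ => φ) x) := by
  have hy : y ∈ Submodule.span ℂ (Set.range (SymmetricPower.tprod ℂ (ι := Fin B) (M := M))) := by
    rw [SymmetricPower.span_tprod_eq_top]
    trivial
  induction hy using Submodule.span_induction with
  | mem z hz =>
    obtain ⟨w, rfl⟩ := hz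
    have key : ∀ (k : ℕ) (w : Fin k → M), ∃ L : (Sym[ℂ]^b M) →ₗ[ℂ] (Sym[ℂ]^(b + k) M),
        ∀ (φ : Module.Dual ℂ M) (x : Sym[ℂ]^b M),
        (Fintype.card (Equiv.Perm (Fin b)) : ℂ) * symEval (fun _ => φ) (L x) =
        (Fintype.card (Equiv.Perm (Fin (b + k))) : ℂ) *
          ((∏ i, φ (w i)) * symEval (fun _ => φ) x) := by
      intro k
      induction k with
      | zero =>
        intro w
        refine ⟨LinearMap.id, fun φ x => ?_⟩
        simp
      | succ k ih =>
        intro w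
        obtain ⟨L, hL⟩ := ih (fun i => w i.succ)
        refine ⟨symCons (b + k) (w 0) ∘ₗ L, fun φ x => ?_⟩
        have h1 := symEval_const_symCons φ (w 0) (L x)
        have h2 := hL φ x
        rw [LinearMap.comp_apply, Fin.prod_univ_succ]
        have h3 : (Fintype.card (Equiv.Perm (Fin (b + k))) : ℂ) ≠ 0 := fac_ne _
        apply mul_left_cancel₀ h3
        calc (Fintype.card (Equiv.Perm (Fin (b + k))) : ℂ) *
              ((Fintype.card (Equiv.Perm (Fin b)) : ℂ) *
                symEval (fun _ => φ) (symCons (b + k) (w 0) (L x)))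
            = (Fintype.card (Equiv.Perm (Fin b)) : ℂ) *
              ((Fintype.card (Equiv.Perm (Fin (b + k))) : ℂ) *
                symEval (fun _ => φ) (symCons (b + k) (w 0) (L x))) := by ring
          _ = (Fintype.card (Equiv.Perm (Fin b)) : ℂ) *
              ((Fintype.card (Equiv.Perm (Fin (b + k + 1))) : ℂ) *
                (φ (w 0) * symEval (fun _ => φ) (L x))) := by rw [h1]
          _ = (Fintype.card (Equiv.Perm (Fin (b + k + 1))) : ℂ) * (φ (w 0) *
              ((Fintype.card (Equiv.Perm (Fin b)) : ℂ) * symEval (fun _ => φ) (L x))) := by ring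
          _ = _ := by
            rw [h2]
            change (Fintype.card (Equiv.Perm (Fin (b + k + 1))) : ℂ) * _ =
              _ * ((Fintype.card (Equiv.Perm (Fin (b + k + 1))) : ℂ) * _)
            ring
    obtain ⟨L, hL⟩ := key B w
    refine ⟨L, fun φ x => ?_⟩
    rw [symEval_const_tprod]
    have h1 := hL φ x
    calc _ = (Fintype.card (Equiv.Perm (Fin B)) : ℂ) *
          ((Fintype.card (Equiv.Perm (Fin b)) : ℂ) * symEval (fun _ => φ) (L x)) := by ring
      _ = _ := by rw [h1]; ring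
  | zero =>
    refine ⟨0, fun φ x => ?_⟩
    simp
  | add z z' _ _ h h' =>
    obtain ⟨L, hL⟩ := h
    obtain ⟨L', hL'⟩ := h'
    refine ⟨L + L', fun φ x => ?_⟩
    rw [LinearMap.add_apply, map_add, map_add, mul_add, hL, hL']
    ring
  | smul c z _ h =>
    obtain ⟨L, hL⟩ := h
    refine ⟨c • L, fun φ x => ?_⟩
    rw [LinearMap.smul_apply, map_smul, map_smul, smul_eq_mul, smul_eq_mul]
    have h1 := hL φ x
    calc _ = c * ((Fintype.card (Equiv.Perm (Fin b)) : ℂ) *
          (Fintype.card (Equiv.Perm (Fin B)) : ℂ) * symEval (fun _ => φ) (L x)) := by ring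
      _ = _ := by rw [h1]; ring

/-- The product of two nonzero elements has a nonzero value. -/
lemma pv_domain [Module.Finite ℂ M] {b B : ℕ} (x : Sym[ℂ]^b M) (y : Sym[ℂ]^B M) (hy : y ≠ 0)
    (h : ∀ φ : Module.Dual ℂ M, symEval (fun _ => φ) y * symEval (fun _ => φ) x = 0) : x = 0 := by
  apply pv_inj
  intro φ
  obtain ⟨ψ, hψ⟩ : ∃ ψ : Module.Dual ℂ M, symEval (fun _ => ψ) y ≠ 0 := by
    by_contra hh
    push Not at hh
    exact hy (pv_inj y hh)
  obtain ⟨p, hp⟩ := pv_line x φ (ψ - φ)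
  obtain ⟨q, hq⟩ := pv_line y φ (ψ - φ)
  have h1 : q * p = 0 := by
    apply Polynomial.funext
    intro t
    rw [Polynomial.eval_mul, hp, hq, Polynomial.eval_zero]
    exact h _
  have hq0 : q ≠ 0 := by
    intro h2
    have h3 := hq 1
    rw [h2, Polynomial.eval_zero] at h3
    have h4 : φ + (1 : ℂ) • (ψ - φ) = ψ := by
      rw [one_smul]
      abel
    rw [h4] at h3
    exact hψ h3.symm
  have h2 : p = 0 := (mul_eq_zero.1 h1).resolve_left hq0
  have h3 := hp 0
  rw [h2, Polynomial.eval_zero, zero_smul, add_zero] at h3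
  exact h3.symm

lemma eq_of_sub_zero' {b : ℕ} {x y : Sym[ℂ]^b M} (h : x - y = 0) : x = y := sub_eq_zero.1 h

lemma one_fix (T : M →ₗ[ℂ] M) (c : ℂ) (hc : c = 1) (v : Fin 0 → M) :
    symMap 0 T (SymmetricPower.tprod ℂ v) = c • SymmetricPower.tprod ℂ v := by
  rw [symMap_tprod, hc, one_smul]
  congr 1
  funext i
  exact i.elim0

lemma one_ne (v : Fin 0 → M) :
    (SymmetricPower.tprod ℂ v : Sym[ℂ]^0 M) ≠ 0 := by
  intro h
  have h1 := congrArg (symEval (M := M) (fun i : Fin 0 => 0)) h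
  rw [map_zero, symEval_tprod] at h1
  simp at h1

lemma pv_eigen {b : ℕ} (x : Sym[ℂ]^b M) (T : M →ₗ[ℂ] M) (c : ℂ) (h : symMap b T x = c • x)
    (φ : Module.Dual ℂ M) :
    symEval (fun _ : Fin b => φ ∘ₗ T) x = c * symEval (fun _ => φ) x := by
  rw [← symEval_symMap, h, map_smul, smul_eq_mul]

end Gen

/-- Product with a highest weight vector. -/
lemma exists_mul_hw {b B a m : ℕ} {mu : Fin m → ℕ} {y : Pleth B a m}
    (hy : y ∈ hwSpace mu (plethAct B a m)) (h0 : y ≠ 0) :
    ∃ L : Pleth b a m →ₗ[ℂ] Pleth (b + B) a m, (∀ x, L x = 0 → x = 0) ∧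
      ∀ (lam : Fin m → ℕ) (x), x ∈ hwSpace lam (plethAct b a m) →
        L x ∈ hwSpace (lam + mu) (plethAct (b + B) a m) := by
  obtain ⟨L, hL⟩ := exists_mul (M := Sym[ℂ]^a (Fin m → ℂ)) (b := b) (B := B) y
  refine ⟨L, ?_, ?_⟩
  · intro x hx
    apply pv_domain (M := Sym[ℂ]^a (Fin m → ℂ)) x y h0
    intro φ
    have h1 := hL φ x
    have h2 : L x = 0 := hx
    rw [h2, map_zero, mul_zero] at h1
    exact (mul_eq_zero.1 h1.symm).resolve_left (fac_ne _)
  · intro lam x hx g hg
    have hx1 : symMap b (symMap a (Matrix.toLin' g)) x = (∏ i, g i i ^ lam i) • x := hx g hg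
    have hy1 : symMap B (symMap a (Matrix.toLin' g)) y = (∏ i, g i i ^ mu i) • y := hy g hg
    have h1 : symMap (b + B) (symMap a (Matrix.toLin' g)) (L x) -
        (∏ i, g i i ^ (lam + mu) i) • L x = 0 := by
      apply pv_inj
      intro φ
      rw [map_sub, map_smul, symEval_symMap, sub_eq_zero, smul_eq_mul]
      have e1 := hL (φ ∘ₗ symMap a (Matrix.toLin' g)) x
      have e2 := hL φ x
      have e3 : symEval (fun _ : Fin b => φ ∘ₗ symMap a (Matrix.toLin' g)) x =
          (∏ i, g i i ^ lam i) * symEval (fun _ => φ) x := pv_eigen _ _ _ hx1 φ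
      have e4 : symEval (fun _ : Fin B => φ ∘ₗ symMap a (Matrix.toLin' g)) y =
          (∏ i, g i i ^ mu i) * symEval (fun _ => φ) y := pv_eigen _ _ _ hy1 φ
      rw [e3, e4] at e1
      have h3 : (Fintype.card (Equiv.Perm (Fin b)) : ℂ) *
          (Fintype.card (Equiv.Perm (Fin B)) : ℂ) ≠ 0 := mul_ne_zero (fac_ne _) (fac_ne _)
      apply mul_left_cancel₀ h3
      have h4 : ∏ i, g i i ^ (lam + mu) i = (∏ i, g i i ^ lam i) * ∏ i, g i i ^ mu i := by
        rw [← Finset.prod_mul_distrib]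
        apply Finset.prod_congr rfl
        intro i _
        rw [Pi.add_apply, pow_add]
      rw [e1, h4]
      calc _ = (∏ i, g i i ^ lam i) * (∏ i, g i i ^ mu i) *
            ((Fintype.card (Equiv.Perm (Fin (b + B))) : ℂ) *
              (symEval (fun _ => φ) y * symEval (fun _ => φ) x)) := by ring
        _ = _ := by rw [← e2]; ring
    exact eq_of_sub_zero' h1

theorem plethMult_mul {b B a m : ℕ} {lam mu : Fin m → ℕ} (h : Pos B a m mu) :
    plethMult b a m lam ≤ plethMult (b + B) a m (lam + mu) := by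
  obtain ⟨y, hy, h0⟩ := h
  obtain ⟨L, hL0, hL⟩ := exists_mul_hw (b := b) hy h0
  exact finrank_le_of_inj L _ _ (fun x hx => hL lam x hx) (fun x _ hx => hL0 x hx)

theorem Pos.mul {B B' a m : ℕ} {mu mu' : Fin m → ℕ} (h : Pos B a m mu) (h' : Pos B' a m mu') :
    Pos (B + B') a m (mu + mu') := by
  obtain ⟨x, hx, hx0⟩ := h
  obtain ⟨y, hy, hy0⟩ := h'
  obtain ⟨L, hL0, hL⟩ := exists_mul_hw (b := B) hy hy0
  exact ⟨L x, hL mu x hx, fun h => hx0 (hL0 x h)⟩

theorem Pos.zero (a m : ℕ) : Pos 0 a m 0 := by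
  refine ⟨SymmetricPower.tprod ℂ (fun i : Fin 0 => i.elim0), ?_, one_ne _⟩
  intro g _
  exact one_fix (M := Sym[ℂ]^a (Fin m → ℂ)) (symMap a (Matrix.toLin' g)) _ (by simp) _

end Vale.Agent.P181.FR
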