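import Vale.Agent.P181.R2.H959.FDefs
import Mathlib.Data.Fin.Tuple.Sort

set_option autoImplicit false

open scoped TensorProduct

namespace Vale.Agent.P181.FR

open Vale.Agent.P181 Vale.Agent.P181.H280 Vale.Agent.P181.H54 MvPolynomial

universe u

lemma finrank_sym_le {M : Type u} [AddCommGroup M] [Module ℂ M] [Module.Finite ℂ M] (k : ℕ) :
    Module.finrank ℂ (Sym[ℂ]^k M) ≤ Module.finrank ℂ M ^ k := by
  classical
  let e := Module.finBasis ℂ M
  have h1 : Module.finrank ℂ (⨂[ℂ] _ : Fin k, M) = Module.finrank ℂ M ^ k := by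
    rw [Module.finrank_eq_card_basis (Basis.piTensorProduct (fun _ : Fin k => e))]
    simp
  rw [← h1]
  exact LinearMap.finrank_le_finrank_of_surjective (f := SymmetricPower.mk ℂ (Fin k) M)
    (LinearMap.range_eq_top.1 (SymmetricPower.range_mk ℂ (Fin k) M))

lemma mem_iff_of_down {b : ℕ} (A : Finset (Fin b)) (hA : ∀ i j, i ≤ j → j ∈ A → i ∈ A)
    (i : Fin b) : i ∈ A ↔ (i : ℕ) < A.card := by
  constructor
  · intro hi
    have h1 : Finset.Iic i ⊆ A := fun j hj => hA j i (Finset.mem_Iic.1 hj) hi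
    have h2 := Finset.card_le_card h1
    rw [Fin.card_Iic] at h2
    omega
  · intro hi
    by_contra h
    have h1 : A ⊆ Finset.Iio i := by
      intro j hj
      rw [Finset.mem_Iio]
      by_contra h2
      rw [not_lt] at h2
      exact h (hA i j h2 hj)
    have h2 := Finset.card_le_card h1
    rw [Fin.card_Iio] at h2
    omega

/-- The number of entries less than `j`. -/
def cntLt {b m : ℕ} (f : Fin b → Fin m) (j : Fin m) : Fin (b + 1) :=
  ⟨(Finset.univ.filter (fun i => f i < j)).card, by
    have h := Finset.card_filter_le (Finset.univ : Finset (Fin b)) (fun i => f i < j)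
    rw [Finset.card_univ, Fintype.card_fin] at h
    omega⟩

lemma mono_eq {b m : ℕ} {f g : Fin b → Fin m} (hf : Monotone f) (hg : Monotone g)
    (h : cntLt f = cntLt g) : f = g := by
  have key : ∀ (f : Fin b → Fin m), Monotone f → ∀ i j, f i < j ↔ (i : ℕ) < (cntLt f j : ℕ) := by
    intro f hf i j
    have h1 := mem_iff_of_down (Finset.univ.filter (fun i => f i < j)) (by
      intro i' j' hij hj
      rw [Finset.mem_filter] at hj ⊢
      exact ⟨Finset.mem_univ _, lt_of_le_of_lt (hf hij) hj.2⟩) i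
    rw [Finset.mem_filter] at h1
    simpa [cntLt] using h1
  funext i
  have h2 : ∀ j, f i < j ↔ g i < j := by
    intro j
    rw [key f hf, key g hg, h]
  rcases lt_trichotomy (f i) (g i) with h3 | h3 | h3
  · exact absurd ((h2 _).1 h3) (lt_irrefl _)
  · exact h3
  · exact absurd ((h2 _).2 h3) (lt_irrefl _)

lemma finrank_symV_le (b m : ℕ) : Module.finrank ℂ (Sym[ℂ]^b (Fin m → ℂ)) ≤ (b + 1) ^ m := by
  classical
  let E : (Fin b → Fin m) → Sym[ℂ]^b (Fin m → ℂ) := fun f =>
    SymmetricPower.tprod ℂ (fun i => Pi.single (f i) (1 : ℂ))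
  -- spanning
  have hspan : Submodule.span ℂ (Set.range E) = ⊤ := by
    rw [eq_top_iff, ← SymmetricPower.span_tprod_eq_top, Submodule.span_le]
    rintro _ ⟨v, rfl⟩
    have h1 : v = fun i => ∑ k, (v i k) • (Pi.single k (1 : ℂ) : Fin m → ℂ) := by
      funext i
      funext l
      rw [Finset.sum_apply, Finset.sum_eq_single l]
      · simp
      · intro k _ hk
        simp [Pi.single_eq_of_ne hk.symm]
      · intro hh
        exact absurd (Finset.mem_univ _) hh
    have h2 : SymmetricPower.tprod ℂ v = ∑ f : Fin b → Fin m, (∏ i, v i (f i)) • E f := by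
      conv_lhs => rw [h1]
      rw [MultilinearMap.map_sum]
      apply Finset.sum_congr rfl
      intro f _
      rw [MultilinearMap.map_smul_univ]
    change SymmetricPower.tprod ℂ v ∈ Submodule.span ℂ (Set.range E)
    rw [h2]
    exact Submodule.sum_mem _ (fun f _ => Submodule.smul_mem _ _ (Submodule.subset_span ⟨f, rfl⟩))
  -- sorting
  have hsort : ∀ f, E f = E (f ∘ Tuple.sort f) := by
    intro f
    exact (SymmetricPower.tprod_equiv (Tuple.sort f) (fun i => (Pi.single (f i) (1 : ℂ) : Fin m → ℂ))).symm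
  -- the values are indexed by the counts
  let g : (Fin m → Fin (b + 1)) → Sym[ℂ]^b (Fin m → ℂ) := fun c =>
    if h : ∃ f : Fin b → Fin m, Monotone f ∧ cntLt f = c then E h.choose else 0
  have hg : Set.range E ⊆ Set.range g := by
    rintro _ ⟨f, rfl⟩
    have hm : Monotone (f ∘ Tuple.sort f) := Tuple.monotone_sort f
    have hex : ∃ f' : Fin b → Fin m, Monotone f' ∧ cntLt f' = cntLt (f ∘ Tuple.sort f) :=
      ⟨_, hm, rfl⟩
    refine ⟨cntLt (f ∘ Tuple.sort f), ?_⟩
    simp only [g]
    rw [dif_pos hex, hsort f]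
    congr 1
    exact mono_eq hex.choose_spec.1 hm hex.choose_spec.2
  have h3 : Module.finrank ℂ (Submodule.span ℂ (Set.range g)) ≤ (b + 1) ^ m := by
    have h4 := finrank_range_le_card (R := ℂ) g
    rw [Fintype.card_fun, Fintype.card_fin, Fintype.card_fin] at h4
    exact h4
  have h5 : Submodule.span ℂ (Set.range g) = ⊤ := by
    rw [eq_top_iff, ← hspan]
    exact Submodule.span_mono hg
  rw [h5, finrank_top] at h3
  exact h3

theorem plethMult_le_pow (a b m : ℕ) (lam : Fin m → ℕ) :
    plethMult a b m lam ≤ (b + 1) ^ (m * a) := by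
  have h0 : plethMult a b m lam ≤
      Module.finrank ℂ (⊤ : Submodule ℂ (Pleth a b m)) :=
    finrank_le_of_inj (LinearMap.id : Pleth a b m →ₗ[ℂ] Pleth a b m) _ _ (fun _ _ => trivial)
      (fun _ _ h => h)
  have h1 : plethMult a b m lam ≤ Module.finrank ℂ (Sym[ℂ]^a (Sym[ℂ]^b (Fin m → ℂ))) := by
    refine h0.trans (le_of_eq ?_)
    exact finrank_top ℂ (Pleth a b m)
  refine h1.trans ((finrank_sym_le a).trans ?_)
  rw [pow_mul]
  exact Nat.pow_le_pow_left (finrank_symV_le b m) a

end Vale.Agent.P181.FR
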