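import Vale.Agent.P181.R2.H822.V5
import Vale.Agent.P181.R2.H822.V7
import Vale.Agent.P181.R2.H182.V6
import Vale.Agent.P181.R2.H424.V3
import Vale.Agent.P181.R2.H130.V4
import Vale.Agent.P181.R2.H425.V1
import Vale.Agent.P181.R2.H280.V2

set_option autoImplicit false

open scoped TensorProduct

namespace Vale.Agent.P181.VT

open Vale.Agent.P181 Vale.Agent.P181.H280 Vale.Agent.P181.FR

/-- The reduction to invariants. -/
theorem seven : ∀ r : ℕ, 1 ≤ r → ∃ N0 N1 : ℕ, ∀ k c : ℕ,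
    Module.finrank ℂ (Pleth (k * nn r) c (r + 1)) ≤
      (k * nn r * c + 1) ^ ((r + 1) * (r + 1)) *
        plethMult (k * nn r) (3 * (r + 1) * c + N0) (r + 1)
          ((3 * (k * nn r * c) + k * N1) • om (r + 1) (r + 1)) :=
  v7_of v1 v2 v3 v4 (v6_of v5)

end Vale.Agent.P181.VT
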