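import Vale.Agent.P181.H54.Propagate
import Mathlib.RingTheory.MvPolynomial.Homogeneous

set_option autoImplicit false

open scoped TensorProduct

namespace Vale.Agent.P181.FR

open Vale.Agent.P181 Vale.Agent.P181.H280 Vale.Agent.P181.H54 MvPolynomial

/-- There is a nonzero highest weight vector of weight `mu` in `Sym^B(Sym^a ℂ^m)`. -/
def Pos (B a m : ℕ) (mu : Fin m → ℕ) : Prop :=
  ∃ y ∈ hwSpace mu (plethAct B a m), y ≠ 0

/-- Functions of `B` points of `ℂ^m`, homogeneous polynomials of degree `a` in each point. -/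
noncomputable def MP (B m a : ℕ) : Submodule ℂ ((Fin B → Fin m → ℂ) → ℂ) :=
  Submodule.span ℂ {G | ∃ q : Fin B → MvPolynomial (Fin m) ℂ, (∀ j, (q j).IsHomogeneous a) ∧
    G = fun p => ∏ j, eval (p j) (q j)}

/-- The fundamental weight `(1^i, 0, ...)`. -/
def om (m i : ℕ) : Fin m → ℕ := fun k => if (k : ℕ) < i then 1 else 0

/-- `diag(1, .., t, .., 1)` -/
noncomputable def dg {m : ℕ} (i : Fin m) (t : ℂ) : Matrix (Fin m) (Fin m) ℂ :=
  Matrix.diagonal (Function.update 1 i t)

/-- Unipotent upper triangular matrices supported on the pairs `i < j` with code less than `r`. -/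
def US (m r : ℕ) : Set (Matrix (Fin m) (Fin m) ℂ) :=
  {u | (∀ i, u i i = 1) ∧ (∀ i j, j < i → u i j = 0) ∧
    ∀ i j : Fin m, i < j → r ≤ (i : ℕ) * m + (m - 1 - (j : ℕ)) → u i j = 0}

/-- The vectors fixed by `US m r`. -/
noncomputable def FixU (b a m r : ℕ) : Submodule ℂ (Pleth b a m) where
  carrier := {x | ∀ u ∈ US m r, plethAct b a m u x = x}
  add_mem' := by
    intro x y hx hy u hu
    rw [map_add, hx u hu, hy u hu]
  zero_mem' := by
    intro u _
    rw [map_zero]
  smul_mem' := by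
    intro c x hx u hu
    rw [map_smul, hx u hu]

/-- Span of the products `∏_j (v_j1 ⋯ v_ja)` in which at least `k0` of the vectors are multiples
of `e_0`. -/
noncomputable def Eb (b a n k0 : ℕ) : Submodule ℂ (Pleth b a (n + 1)) :=
  Submodule.span ℂ {x | ∃ (v : Fin b → Fin a → (Fin (n + 1) → ℂ)) (S : Finset (Fin b × Fin a)),
    k0 ≤ S.card ∧ (∀ p ∈ S, ∃ c : ℂ, v p.1 p.2 = c • Pi.single 0 1) ∧
    x = SymmetricPower.tprod ℂ (fun j => SymmetricPower.tprod ℂ (v j))}

end Vale.Agent.P181.FR
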