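import Vale.Agent.P181.R2.H959.FDefs

set_option autoImplicit false

namespace Vale.Agent.P181.FR

open Vale.Agent.P181 Vale.Agent.P181.H280

/-- Highest weight functions of `B` points of `ℂ^m`. -/
def HWF (B m : ℕ) (lam : Fin m → ℕ) (G : (Fin B → Fin m → ℂ) → ℂ) : Prop :=
  ∀ g : Matrix (Fin m) (Fin m) ℂ, IsBorel g → ∀ p,
    G (fun j => Matrix.vecMul (p j) g) = (∏ i, g i i ^ lam i) * G p

/-- The weight with gaps `g 1, ..., g m`: the sum of `g j` times `(1^j)`. -/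
def gw (m : ℕ) (g : ℕ → ℕ) : Fin m → ℕ := fun k => ∑ j ∈ Finset.Ioc (k : ℕ) m, g j

end Vale.Agent.P181.FR
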