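import Vale.Agent.P181.R2.H959.Split

/-!
P181, three rows, row R5: the special case `k = t` of the A-step.
-/

set_option autoImplicit false

open MvPolynomial

namespace Vale.Agent.P181.T3R.H959

open Vale.Agent.P181 Vale.Agent.P181.H536 Vale.Agent.P181.H280

/-- The coefficient of `c` in the relation `QQ 1`. -/
lemma coeff_one_zero {m b : ℕ} {G : Fm m} (hG : QQ 1 b G) (x : ℂ) {g : S3}
    (hg : g ∈ linS 3 ^ (b - 1)) :
    ∑ i, G (Function.update (fun _ => ln x * g) i (X 2 * g)) = 0 := by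
  obtain ⟨p, hp, hp'⟩ := hG x (fun _ => g) (fun _ => hg)
  have h1 : pl G (fun _ => ln x * g) (fun _ => X 2 * g) = p := by
    apply Polynomial.funext
    intro c
    rw [pl_eval, hp' c]
    congr 1
    funext i
    rw [add_mul, smul_mul_assoc]
  rw [← pl_coeff_one G (fun _ => ln x * g) (fun _ => X 2 * g), h1]
  exact Polynomial.coeff_eq_zero_of_degree_lt (by exact_mod_cast hp)

/-- The terms with one `X 2 * ∂₀ C`. -/
lemma sum_pderiv_zero {m b : ℕ} {G : Fm m} (hG : QQ 1 b G) (M N : Multiset ℂ)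
    (hMN : M.card + N.card = b) :
    ∑ i, G (Function.update (fun _ => Pr M * Pr N) i (X 2 * (pderiv (0 : Fin 3) (Pr M) * Pr N))) =
      0 := by
  induction M using Multiset.induction generalizing N with
  | empty =>
    apply Finset.sum_eq_zero
    intro i _
    have h1 : X 2 * (pderiv (0 : Fin 3) (Pr 0) * Pr N) = 0 := by
      rw [Pr_zero, Derivation.map_one_eq_zero, zero_mul, mul_zero]
    rw [h1]
    exact MultilinearMap.map_coord_zero G i (Function.update_self _ _ _)
  | cons x M ih =>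
    have h1 : pderiv (0 : Fin 3) (Pr (x ::ₘ M)) = Pr M + ln x * pderiv (0 : Fin 3) (Pr M) := by
      rw [Pr_cons, Derivation.leibniz, smul_eq_mul, smul_eq_mul]
      have h2 : pderiv (0 : Fin 3) (ln x) = 1 := by
        rw [ln, map_add, Derivation.map_smul, pderiv_X0, pderiv_X1, smul_zero, add_zero]
      rw [h2]
      ring
    have h3 := ih (x ::ₘ N) (by
      rw [Multiset.card_cons] at hMN ⊢
      omega)
    have hg : Pr M * Pr N ∈ linS 3 ^ (b - 1) := by
      have h4 : b - 1 = M.card + N.card := by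
        rw [Multiset.card_cons] at hMN
        omega
      rw [h4, pow_add]
      exact Submodule.mul_mem_mul (pow_le_pow_left' U2_le _ (Pr_mem M))
        (pow_le_pow_left' U2_le _ (Pr_mem N))
    have h5 := coeff_one_zero hG x hg
    have h6 : (fun _ : Fin m => Pr (x ::ₘ M) * Pr N) = fun _ => ln x * (Pr M * Pr N) := by
      funext i
      rw [Pr_cons, mul_assoc]
    have h7 : (fun _ : Fin m => Pr M * Pr (x ::ₘ N)) = fun _ => ln x * (Pr M * Pr N) := by
      funext i
      rw [Pr_cons]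
      ring
    have h8 : X 2 * (pderiv (0 : Fin 3) (Pr (x ::ₘ M)) * Pr N) =
        X 2 * (Pr M * Pr N) + X 2 * (pderiv (0 : Fin 3) (Pr M) * Pr (x ::ₘ N)) := by
      rw [h1, Pr_cons]
      ring
    rw [h7] at h3
    rw [h6, h8]
    calc ∑ i, G (Function.update (fun _ => ln x * (Pr M * Pr N)) i
          (X 2 * (Pr M * Pr N) + X 2 * (pderiv (0 : Fin 3) (Pr M) * Pr (x ::ₘ N))))
        = ∑ i, (G (Function.update (fun _ => ln x * (Pr M * Pr N)) i (X 2 * (Pr M * Pr N))) +
          G (Function.update (fun _ => ln x * (Pr M * Pr N)) i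
            (X 2 * (pderiv (0 : Fin 3) (Pr M) * Pr (x ::ₘ N))))) :=
          Finset.sum_congr rfl (fun i _ => MultilinearMap.map_update_add G _ i _ _)
      _ = 0 := by rw [Finset.sum_add_distrib, h5, h3, add_zero]

/-- The shear: first order. -/
lemma shear_first {m b t : ℕ} (ht : 1 ≤ t) (htb : t ≤ b) (F : Fm (m + 1)) (hI : Inv b F)
    (hH : Hom b t F) {A C : S3} (hA : A ∈ U2 ^ (b - (t - 1))) (hC : C ∈ U2 ^ b) :
    F.curryLeft (X 2 ^ t * pderiv (0 : Fin 3) A) (fun _ => C) +
      ∑ i, F.curryLeft (X 2 ^ (t - 1) * A)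
        (Function.update (fun _ => C) i (X 2 * pderiv (0 : Fin 3) C)) = 0 := by
  obtain ⟨t', rfl⟩ : ∃ t', t = t' + 1 := ⟨t - 1, by omega⟩
  rw [Nat.add_sub_cancel] at hA ⊢
  have hbt : b - t' = (b - (t' + 1)) + 1 := by omega
  have hDA : pderiv (0 : Fin 3) A ∈ U2 ^ (b - (t' + 1)) := by
    rw [hbt] at hA
    exact pderiv_U2 hA
  have hDC : pderiv (0 : Fin 3) C ∈ U2 ^ (b - 1) := by
    have h1 : b = (b - 1) + 1 := by omega
    rw [h1] at hC
    exact pderiv_U2 hC
  -- the arguments
  obtain ⟨u, hu⟩ : ∃ u : Fin (m + 1) → S3, u = Fin.cons (X 2 ^ t' * A) (fun _ => C) := ⟨_, rfl⟩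
  obtain ⟨v, hv⟩ : ∃ v : Fin (m + 1) → S3, v = Fin.cons (X 2 ^ (t' + 1) * pderiv (0 : Fin 3) A)
      (fun _ => X 2 * pderiv (0 : Fin 3) C) := ⟨_, rfl⟩
  obtain ⟨k, hk⟩ : ∃ k : Fin (m + 1) → ℕ, k = Fin.cons t' (fun _ => 0) := ⟨_, rfl⟩
  have hksum : ∑ i, k i = t' := by
    rw [Fin.sum_univ_succ, hk]
    simp
  have huW : ∀ i, u i ∈ WW b (k i) := by
    intro i
    refine Fin.cases ?_ (fun i => ?_) i
    · rw [hu, hk, Fin.cons_zero, Fin.cons_zero]
      exact zA_mem_WW le_rfl (by omega) hA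
    · rw [hu, hk, Fin.cons_succ, Fin.cons_succ]
      exact U_mem_WW hC
  have hvW : ∀ i, v i ∈ WW b (k i + 1) := by
    intro i
    refine Fin.cases ?_ (fun i => ?_) i
    · rw [hv, hk, Fin.cons_zero, Fin.cons_zero]
      exact zA_mem_WW le_rfl htb hDA
    · rw [hv, hk, Fin.cons_succ, Fin.cons_succ]
      have h1 := zA_mem_WW (b := b) (j := 1) (k := 1) le_rfl (by omega) hDC
      rwa [pow_one] at h1
  have huS : ∀ i, u i ∈ linS 3 ^ b := fun i => WW_le_linS _ _ (huW i)
  have hRW : ∀ i, sh 1 (u i) - (u i + v i) ∈ WW b (k i + 2) := by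
    intro i
    refine Fin.cases ?_ (fun i => ?_) i
    · rw [hu, hk, hv, Fin.cons_zero, Fin.cons_zero, Fin.cons_zero, sh_one_zpow]
      have h1 : X 2 ^ t' * sh 1 A - (X 2 ^ t' * A + X 2 ^ (t' + 1) * pderiv (0 : Fin 3) A) =
          X 2 ^ t' * (sh 1 A - (A + X 2 * pderiv (0 : Fin 3) A)) := by ring
      rw [h1]
      have h2 := WW_zpow_mul (j := t') (sh_order hA)
      have h3 : b - t' + t' = b := by omega
      rw [h3] at h2
      exact WW_mono (by omega) h2
    · rw [hu, hk, hv, Fin.cons_succ, Fin.cons_succ, Fin.cons_succ]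
      exact WW_mono (by omega) (sh_order hC)
  -- the form at `u` vanishes
  have hu0 : F u = 0 := by
    have h1 : u = fun i => X 2 ^ k i * (Fin.cons A (fun _ => C) : Fin (m + 1) → S3) i := by
      funext i
      refine Fin.cases ?_ (fun i => ?_) i
      · rw [hu, hk, Fin.cons_zero, Fin.cons_zero, Fin.cons_zero]
      · rw [hu, hk, Fin.cons_succ, Fin.cons_succ, Fin.cons_succ, pow_zero, one_mul]
    rw [h1]
    apply wt_zero hH k
    · intro i
      refine Fin.cases ?_ (fun i => ?_) i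
      · rw [hk, Fin.cons_zero]; omega
      · rw [hk, Fin.cons_succ]; exact Nat.zero_le _
    · intro i
      refine Fin.cases ?_ (fun i => ?_) i
      · rw [hk, Fin.cons_zero, Fin.cons_zero]; exact hA
      · rw [hk, Fin.cons_succ, Fin.cons_succ]; exact hC
    · rw [hksum]; omega
  -- two steps of the expansion
  have h1 : F (fun i => u i + v i) = ∑ i, F (Function.update u i (v i)) := by
    apply eval_add_eq_sum F u v hu0
    intro s hs
    apply ord_zero hH (fun i => k i + if i ∈ s then 1 else 0)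
    · intro i
      by_cases hi : i ∈ s
      · rw [Finset.piecewise_eq_of_mem _ _ _ hi, if_pos hi]
        exact hvW i
      · rw [Finset.piecewise_eq_of_notMem _ _ _ hi, if_neg hi]
        exact huW i
    · rw [Finset.sum_add_distrib, hksum, Finset.sum_ite_mem, Finset.univ_inter,
        Finset.sum_const, smul_eq_mul, mul_one]
      omega
  have h2 : F (fun i => (u i + v i) + (sh 1 (u i) - (u i + v i))) = F (fun i => u i + v i) := by
    apply eval_add_eq F (fun i => u i + v i) (fun i => sh 1 (u i) - (u i + v i))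
    intro s hs
    apply ord_zero hH (fun i => k i + if i ∈ s then 2 else 0)
    · intro i
      by_cases hi : i ∈ s
      · rw [Finset.piecewise_eq_of_mem _ _ _ hi, if_pos hi]
        exact hRW i
      · rw [Finset.piecewise_eq_of_notMem _ _ _ hi, if_neg hi]
        exact Submodule.add_mem _ (huW i) (WW_mono (by omega) (hvW i))
    · rw [Finset.sum_add_distrib, hksum, Finset.sum_ite_mem, Finset.univ_inter,
        Finset.sum_const, smul_eq_mul]
      have := hs.card_pos
      omega
  have h3 : (fun i => (u i + v i) + (sh 1 (u i) - (u i + v i))) = fun i => sh 1 (u i) := by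
    funext i
    ring
  rw [h3, hI 1 u huS, hu0, h1, Fin.sum_univ_succ] at h2
  rw [← h2.symm]
  congr 1
  · rw [MultilinearMap.curryLeft_apply]
    congr 1
    rw [hu, hv, Fin.cons_zero, Fin.update_cons_zero]
  · refine Finset.sum_congr rfl (fun i _ => ?_)
    rw [MultilinearMap.curryLeft_apply]
    congr 1
    rw [hu, hv, Fin.cons_succ, ← Fin.cons_update]

/-- The special case at products of chart lines. -/
lemma special_lines {m b t : ℕ} (ht : 1 ≤ t) (htb : t ≤ b) (F : Fm (m + 1)) (hI : Inv b F)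
    (hH : Hom b t F)
    (hQ : ∀ A ∈ U2 ^ (b - (t - 1)), QQ 1 b (F.curryLeft (X 2 ^ (t - 1) * A)))
    {A : S3} (hA : A ∈ U2 ^ (b - (t - 1))) (M : Multiset ℂ) (hM : M.card = b) :
    F.curryLeft (X 2 ^ t * pderiv (0 : Fin 3) A) (fun _ => Pr M) = 0 := by
  have h1 := shear_first ht htb F hI hH hA (C := Pr M) (by rw [← hM]; exact Pr_mem M)
  have h2 := sum_pderiv_zero (hQ A hA) M 0 (by rw [Multiset.card_zero, add_zero, hM])
  simp only [Pr_zero, mul_one] at h2
  rw [h2, add_zero] at h1
  exact h1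

/-- **Row R5**: the special case `k = t`. -/
theorem _root_.Vale.Agent.P181.T3R.special {m b t : ℕ} (ht : 1 ≤ t) (htb : t ≤ b)
    (F : Fm (m + 1)) (hsy : IsSymm F) (hI : Inv b F) (hH : Hom b t F)
    (hQ : ∀ A ∈ U2 ^ (b - (t - 1)), QQ 1 b (F.curryLeft (X 2 ^ (t - 1) * A)))
    {A : S3} (hA : A ∈ U2 ^ (b - t)) : Van b (F.curryLeft (X 2 ^ t * A)) := by
  -- derivatives
  have h1 : ∀ B ∈ U2 ^ (b - (t - 1)), ∀ y : Fin m → S3, (∀ i, y i ∈ U2 ^ b) →
      F.curryLeft (X 2 ^ t * pderiv (0 : Fin 3) B) y = 0 := by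
    intro B hB y hy
    exact van_of_lines (hsy.curryLeft _)
      (fun M hM => special_lines ht htb F hI hH hQ hB M hM) y hy
  -- all binary forms
  have h2 : ∀ y : Fin m → S3, (∀ i, y i ∈ U2 ^ b) → F.curryLeft (X 2 ^ t * A) y = 0 := by
    intro y hy
    obtain ⟨q, hq, rfl⟩ := exists_hm hA
    rw [hm, Finset.mul_sum, map_sum, MultilinearMap.sum_apply]
    apply Finset.sum_eq_zero
    intro k hk
    rw [Finset.mem_range] at hk
    have h3 : q.coeff k • ((X 0 : S3) ^ (b - t - k) * X 1 ^ k) =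
        (q.coeff k * ((b - t - k + 1 : ℕ) : ℂ)⁻¹) •
          pderiv (0 : Fin 3) ((X 0 : S3) ^ (b - t - k + 1) * X 1 ^ k) := by
      have h4 : pderiv (0 : Fin 3) ((X 0 : S3) ^ (b - t - k + 1) * X 1 ^ k) =
          ((b - t - k + 1 : ℕ) : ℂ) • ((X 0 : S3) ^ (b - t - k) * X 1 ^ k) := by
        rw [Derivation.leibniz, Derivation.leibniz_pow, Derivation.leibniz_pow, pderiv_X0,
          pderiv_X1, Nat.add_sub_cancel]
        simp only [smul_zero, smul_eq_mul, mul_zero, zero_add, mul_one, nsmul_eq_mul,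
          MvPolynomial.smul_eq_C_mul, map_natCast]
        ring
      rw [h4, smul_smul, mul_assoc, inv_mul_cancel₀, mul_one]
      exact_mod_cast Nat.succ_ne_zero (b - t - k)
    rw [h3, mul_smul_comm, map_smul, MultilinearMap.smul_apply, h1 _ _ y hy, smul_zero]
    have h5 : b - (t - 1) = (b - t - k + 1) + k := by omega
    rw [h5, pow_add]
    exact Submodule.mul_mem_mul (Submodule.pow_mem_pow _ X0_mem _)
      (Submodule.pow_mem_pow _ X1_mem _)
  -- all forms
  intro P hP
  apply mzs (F.curryLeft (X 2 ^ t * A)) (fun _ => WS b 0) _ P (fun i => linS_le_WW b (hP i))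
  intro w hw
  choose j hj hjb B hB hw' using hw
  have h6 : w = fun i => X 2 ^ j i * B i := funext hw'
  by_cases h7 : ∀ i, j i = 0
  · apply h2
    intro i
    rw [hw' i]
    have h8 := hB i
    rw [h7 i, Nat.sub_zero] at h8
    rw [h7 i, pow_zero, one_mul]
    exact h8
  · push Not at h7
    obtain ⟨i₀, hi₀⟩ := h7
    rw [MultilinearMap.curryLeft_apply]
    have h8 : (Fin.cons (X 2 ^ t * A) w : Fin (m + 1) → S3) = fun i =>
        X 2 ^ (Fin.cons t j : Fin (m + 1) → ℕ) i * (Fin.cons A B : Fin (m + 1) → S3) i := by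
      funext i
      refine Fin.cases ?_ (fun i => ?_) i
      · rw [Fin.cons_zero, Fin.cons_zero, Fin.cons_zero]
      · rw [Fin.cons_succ, Fin.cons_succ, Fin.cons_succ, hw' i]
    rw [h8]
    apply wt_zero hH
    · intro i
      refine Fin.cases ?_ (fun i => ?_) i
      · rw [Fin.cons_zero]; exact htb
      · rw [Fin.cons_succ]; exact hjb i
    · intro i
      refine Fin.cases ?_ (fun i => ?_) i
      · rw [Fin.cons_zero, Fin.cons_zero]; exact hA
      · rw [Fin.cons_succ, Fin.cons_succ]; exact hB i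
    · rw [Fin.sum_univ_succ, Fin.cons_zero]
      simp only [Fin.cons_succ]
      have h9 := Finset.single_le_sum (f := j) (fun i _ => Nat.zero_le _) (Finset.mem_univ i₀)
      omega

end Vale.Agent.P181.T3R.H959
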