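import Vale.Agent.P181.R2.H425.Y7L
import Vale.Agent.P181.R2.H849.GapY4
import Vale.Agent.P181.R2.H350.RichMix
import Vale.Agent.P181.R2.H822.Q1
import Vale.Agent.P181.R2.H130.Q2
import Vale.Agent.P181.R2.H280.MixQS

/-! P181: theorems Y and Z without hypotheses. -/

set_option autoImplicit false

open scoped TensorProduct

namespace Vale.Agent.P181.FR

open Vale.Agent.P181 Vale.Agent.P181.H280

/-- Foulkes' inequality if `λ_2 λ_3 ≥ C (a q) ^ 3 s`, `λ_3 ≥ C a q ^ 2 s` and `b ≥ C a q`, where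
`b < s ^ q` and `C q s ≤ a`. -/
theorem all_mix_qs (n : ℕ) : ∃ C : ℕ,
    ∀ (a b q s : ℕ) (lam : Fin (n + 3) → ℕ), 1 ≤ q → 2 ≤ s → b + 1 ≤ s ^ q → C * (q * s) ≤ a →
    C * (a * q) ≤ b → C * (a * q ^ 2 * s) ≤ lam 2 → C * ((a * q) ^ 3 * s) ≤ lam 1 * lam 2 →
    plethMult a b (n + 3) lam ≤ plethMult b a (n + 3) lam :=
  QS280.all_mix_qs_of
    (fun {m i} hi him => H822Q.gap_mix_qs_of hi him (pos_all (by omega) him) (rich_mix hi him))
    (fun {m i} hi him => gap_qs_of hi him (pos_all (by omega) him)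
      (rich_rect_of rich_of_family family hi him)) n

/-- The case `q = L`, `s = 2`. -/
theorem all_mix_log (n : ℕ) : ∃ C : ℕ,
    ∀ (a b L : ℕ) (lam : Fin (n + 3) → ℕ), 1 ≤ L → b + 1 ≤ 2 ^ L → C * L ≤ a →
    C * (a * L) ≤ b → C * (a * L ^ 2) ≤ lam 2 → C * (a * L) ^ 3 ≤ lam 1 * lam 2 →
    plethMult a b (n + 3) lam ≤ plethMult b a (n + 3) lam :=
  all_mix_log_of
    (fun {m i} hi him => gap_mix_log_of hi him (pos_all (by omega) him) (rich_mix hi him))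
    (fun {m i} hi him => gap_log_of hi him (pos_all (by omega) him)
      (rich_rect_of rich_of_family family hi him)) n

/-- Foulkes' inequality if `b ≥ C a L ^ 2` and
`b ^ (m - 1) λ_2 ^ (m - 2) ≥ C a ^ (3 m - 5) L ^ (3 m - 6)`, where `m = n + 3`. -/
theorem all_wide_log (n : ℕ) : ∃ C : ℕ,
    ∀ (a b L : ℕ) (lam : Fin (n + 3) → ℕ), 1 ≤ L → b + 1 ≤ 2 ^ L → C * (a * L ^ 2) ≤ b →
    C * (a ^ (3 * n + 4) * L ^ (3 * n + 3)) ≤ b ^ (n + 2) * lam 1 ^ (n + 1) →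
    plethMult a b (n + 3) lam ≤ plethMult b a (n + 3) lam :=
  all_wide_log_of n (all_mix_log n)

end Vale.Agent.P181.FR
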