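import Vale.Agent.P181.R2.H556.ThreeDefs

/-!
P181, three rows (helper298's theorem): general tools for forms in three variables.

* `pl G u v`: the polynomial `c ↦ G (u + c v)`;
* `WW b k`: the forms of degree `b` divisible by `X 2 ^ k`, as a span;
* `wt_zero`, `ord_zero`: vanishing by weights;
* `van_of_lines`: a symmetric form vanishing on the diagonal at all products of chart lines
  vanishes on all binary forms.
-/

set_option autoImplicit false

open MvPolynomial

namespace Vale.Agent.P181.T3R.H959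

open Vale.Agent.P181 Vale.Agent.P181.H536 Vale.Agent.P181.H280

section Pl

/-- The polynomial `c ↦ G (u + c v)`. -/
noncomputable def pl {m : ℕ} (G : Fm m) (u v : Fin m → S3) : Polynomial ℂ :=
  ∑ s : Finset (Fin m), Polynomial.C (G (s.piecewise v u)) * Polynomial.X ^ s.card

lemma pl_eval {m : ℕ} (G : Fm m) (u v : Fin m → S3) (c : ℂ) :
    (pl G u v).eval c = G (fun i => u i + c • v i) := by
  have h1 : (fun i => u i + c • v i) = c • v + u := by
    funext i
    simp [add_comm]
  rw [h1, MultilinearMap.map_add_univ, pl, Polynomial.eval_finsetSum]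
  refine Finset.sum_congr rfl (fun s _ => ?_)
  have h2 : s.piecewise (c • v) u =
      s.piecewise (fun i => c • (s.piecewise v u) i) (s.piecewise v u) := by
    funext i
    by_cases hi : i ∈ s <;> simp [Finset.piecewise, hi]
  rw [h2, MultilinearMap.map_piecewise_smul, Finset.prod_const, smul_eq_mul,
    Polynomial.eval_mul, Polynomial.eval_C, Polynomial.eval_pow, Polynomial.eval_X, mul_comm]

lemma pl_coeff {m : ℕ} (G : Fm m) (u v : Fin m → S3) (j : ℕ) :
    (pl G u v).coeff j =
      ∑ s ∈ Finset.univ.filter (fun s : Finset (Fin m) => s.card = j), G (s.piecewise v u) := by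
  rw [pl, Polynomial.finsetSum_coeff, Finset.sum_filter]
  refine Finset.sum_congr rfl (fun s _ => ?_)
  rw [Polynomial.coeff_C_mul, Polynomial.coeff_X_pow]
  by_cases h : s.card = j
  · rw [if_pos h, if_pos h.symm, mul_one]
  · rw [if_neg h, if_neg (fun h' => h h'.symm), mul_zero]

lemma pl_coeff_gt {m : ℕ} (G : Fm m) (u v : Fin m → S3) {j : ℕ} (hj : m < j) :
    (pl G u v).coeff j = 0 := by
  rw [pl_coeff]
  apply Finset.sum_eq_zero
  intro s hs
  have h1 := (Finset.mem_filter.1 hs).2
  have h2 := Finset.card_le_univ s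
  rw [Fintype.card_fin] at h2
  omega

lemma pl_coeff_one {m : ℕ} (G : Fm m) (u v : Fin m → S3) :
    (pl G u v).coeff 1 = ∑ i, G (Function.update u i (v i)) := by
  rw [pl_coeff]
  symm
  apply Finset.sum_bij (fun i _ => ({i} : Finset (Fin m)))
  · intro i _
    simp
  · intro i _ j _ hij
    simpa using hij
  · intro s hs
    rw [Finset.mem_filter] at hs
    obtain ⟨i, hi⟩ := Finset.card_eq_one.1 hs.2
    exact ⟨i, Finset.mem_univ i, hi.symm⟩
  · intro i _
    congr 1
    funext j
    by_cases hj : j = i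
    · subst hj; simp [Finset.piecewise]
    · simp [Finset.piecewise, hj]

/-- If all terms with at least two `v` vanish and the term without `v` vanishes, then
`G (u + v)` is the sum of the terms with one `v`. -/
lemma eval_add_eq_sum {m : ℕ} (G : Fm m) (u v : Fin m → S3) (h0 : G u = 0)
    (h2 : ∀ s : Finset (Fin m), 2 ≤ s.card → G (s.piecewise v u) = 0) :
    G (fun i => u i + v i) = ∑ i, G (Function.update u i (v i)) := by
  rw [← pl_coeff_one, pl_coeff]
  have h1 : (fun i => u i + v i) = v + u := by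
    funext i
    simp [add_comm]
  rw [h1, MultilinearMap.map_add_univ, Finset.sum_filter]
  refine Finset.sum_congr rfl (fun s _ => ?_)
  by_cases h : s.card = 1
  · rw [if_pos h]
  · rw [if_neg h]
    rcases Nat.lt_or_ge s.card 2 with h3 | h3
    · have h4 : s = ∅ := by
        rw [← Finset.card_eq_zero]
        omega
      rw [h4, Finset.piecewise_empty]
      exact h0
    · exact h2 s h3

/-- If all terms with some `v` vanish then `G (u + v) = G u`. -/
lemma eval_add_eq {m : ℕ} (G : Fm m) (u v : Fin m → S3)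
    (h2 : ∀ s : Finset (Fin m), s.Nonempty → G (s.piecewise v u) = 0) :
    G (fun i => u i + v i) = G u := by
  have h1 : (fun i => u i + v i) = v + u := by
    funext i
    simp [add_comm]
  rw [h1, MultilinearMap.map_add_univ, Finset.sum_eq_single ∅]
  · rw [Finset.piecewise_empty]
  · intro s _ hs
    exact h2 s (Finset.nonempty_iff_ne_empty.2 hs)
  · intro h
    exact absurd (Finset.mem_univ _) h

end Pl

section Span

/-- A multilinear form vanishing on generators vanishes on the spans. -/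
lemma mzs {m : ℕ} (Φ : Fm m) (S : Fin m → Set S3)
    (h : ∀ w : Fin m → S3, (∀ i, w i ∈ S i) → Φ w = 0) (w : Fin m → S3)
    (hw : ∀ i, w i ∈ Submodule.span ℂ (S i)) : Φ w = 0 := by
  classical
  have h1 : ∀ i, ∃ l : S i →₀ ℂ,
      Finsupp.linearCombination ℂ (Subtype.val : S i → S3) l = w i := by
    intro i
    rw [← Finsupp.mem_span_iff_linearCombination]
    exact hw i
  choose l hl using h1
  have h2 : w = fun i => ∑ r ∈ (l i).support, (l i r) • (r : S3) := by
    funext i
    rw [← hl i, Finsupp.linearCombination_apply, Finsupp.sum]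
  rw [h2, MultilinearMap.map_sum_finset]
  apply Finset.sum_eq_zero
  intro r _
  rw [MultilinearMap.map_smul_univ, h _ (fun i => (r i).2), smul_zero]

/-- The generators of `WW b k`. -/
def WS (b k : ℕ) : Set S3 := {P | ∃ j, k ≤ j ∧ j ≤ b ∧ ∃ A ∈ U2 ^ (b - j), P = X 2 ^ j * A}

/-- The forms of degree `b` divisible by `X 2 ^ k`. -/
noncomputable def WW (b k : ℕ) : Submodule ℂ S3 := Submodule.span ℂ (WS b k)

lemma WS_mono {b k k' : ℕ} (h : k' ≤ k) : WS b k ⊆ WS b k' := by
  rintro P ⟨j, hj, hjb, A, hA, rfl⟩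
  exact ⟨j, h.trans hj, hjb, A, hA, rfl⟩

lemma WW_mono {b k k' : ℕ} (h : k' ≤ k) : WW b k ≤ WW b k' := Submodule.span_mono (WS_mono h)

lemma zA_mem_WW {b j k : ℕ} (hk : k ≤ j) (hj : j ≤ b) {A : S3} (hA : A ∈ U2 ^ (b - j)) :
    X 2 ^ j * A ∈ WW b k := Submodule.subset_span ⟨j, hk, hj, A, hA, rfl⟩

lemma U_mem_WW {b : ℕ} {A : S3} (hA : A ∈ U2 ^ b) : A ∈ WW b 0 := by
  have h1 := zA_mem_WW (b := b) (j := 0) (k := 0) le_rfl (Nat.zero_le _) (A := A) (by simpa using hA)
  simpa using h1

lemma WW_mul_U {b k : ℕ} {P l : S3} (hP : P ∈ WW b k) (hl : l ∈ U2) : P * l ∈ WW (b + 1) k := by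
  induction hP using Submodule.span_induction with
  | mem P hP =>
    obtain ⟨j, hj, hjb, A, hA, rfl⟩ := hP
    rw [mul_assoc]
    refine zA_mem_WW hj (by omega) ?_
    rw [Nat.sub_add_comm hjb, pow_succ]
    exact Submodule.mul_mem_mul hA hl
  | zero => rw [zero_mul]; exact Submodule.zero_mem _
  | add x y _ _ hx hy => rw [add_mul]; exact Submodule.add_mem _ hx hy
  | smul c x _ hx => rw [smul_mul_assoc]; exact Submodule.smul_mem _ _ hx

lemma WW_mul_z {b k : ℕ} {P : S3} (hP : P ∈ WW b k) : P * X 2 ∈ WW (b + 1) (k + 1) := by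
  induction hP using Submodule.span_induction with
  | mem P hP =>
    obtain ⟨j, hj, hjb, A, hA, rfl⟩ := hP
    have h1 : X 2 ^ j * A * X 2 = X 2 ^ (j + 1) * A := by ring
    rw [h1]
    refine zA_mem_WW (by omega) (by omega) ?_
    rw [Nat.add_sub_add_right]
    exact hA
  | zero => rw [zero_mul]; exact Submodule.zero_mem _
  | add x y _ _ hx hy => rw [add_mul]; exact Submodule.add_mem _ hx hy
  | smul c x _ hx => rw [smul_mul_assoc]; exact Submodule.smul_mem _ _ hx

lemma X0_mem : (X 0 : S3) ∈ U2 := Submodule.subset_span (by simp)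
lemma X1_mem : (X 1 : S3) ∈ U2 := Submodule.subset_span (by simp)

lemma linS_le_WW (b : ℕ) : linS 3 ^ b ≤ WW b 0 := by
  induction b with
  | zero =>
    rw [pow_zero, Submodule.one_eq_span, Submodule.span_le]
    rintro _ rfl
    exact U_mem_WW (b := 0) (by rw [pow_zero]; exact Submodule.one_le.1 le_rfl)
  | succ b ih =>
    rw [pow_succ, Submodule.mul_le]
    intro P hP l hl
    have hP' := ih hP
    rw [linS] at hl
    induction hl using Submodule.span_induction with
    | mem l hl =>
      obtain ⟨i, rfl⟩ := hl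
      fin_cases i
      · exact WW_mul_U hP' X0_mem
      · exact WW_mul_U hP' X1_mem
      · exact WW_mono (Nat.zero_le _) (WW_mul_z hP')
    | zero => rw [mul_zero]; exact Submodule.zero_mem _
    | add x y _ _ hx hy => rw [mul_add]; exact Submodule.add_mem _ hx hy
    | smul c x _ hx => rw [mul_smul_comm]; exact Submodule.smul_mem _ _ hx

lemma WW_le_linS (b k : ℕ) : WW b k ≤ linS 3 ^ b := by
  rw [WW, Submodule.span_le]
  rintro P ⟨j, _, hjb, A, hA, rfl⟩
  exact zA_mem hjb hA

end Span

section Weight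

variable {a b t : ℕ} {F : Fm a}

/-- Weights. -/
lemma wt_zero (hH : Hom b t F) (k : Fin a → ℕ) (hk : ∀ i, k i ≤ b) (A : Fin a → S3)
    (hA : ∀ i, A i ∈ U2 ^ (b - k i)) (hne : ∑ i, k i ≠ t) :
    F (fun i => X 2 ^ k i * A i) = 0 := by
  have h1 := hH 2 two_ne_zero (fun i => X 2 ^ k i * A i) (fun i => zA_mem (hk i) (hA i))
  have h2 : (fun i => tau 2 (X 2 ^ k i * A i)) =
      fun i => ((2 : ℂ) ^ k i) • (X 2 ^ k i * A i) := by
    funext i
    rw [map_mul, map_pow, tau_X2, tau_U2 2 (hA i), smul_pow, smul_mul_assoc]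
  rw [h2, MultilinearMap.map_smul_univ, Finset.prod_pow_eq_pow_sum, smul_eq_mul] at h1
  by_contra hF
  have h3 : (2 : ℂ) ^ (∑ i, k i) = 2 ^ t := mul_right_cancel₀ hF h1
  apply hne
  have h4 : (2 : ℕ) ^ (∑ i, k i) = 2 ^ t := by exact_mod_cast h3
  exact Nat.pow_right_injective le_rfl h4

/-- Vanishing by the order in `X 2`. -/
lemma ord_zero (hH : Hom b t F) (k : Fin a → ℕ) (P : Fin a → S3) (hP : ∀ i, P i ∈ WW b (k i))
    (hlt : t < ∑ i, k i) : F P = 0 := by
  apply mzs F (fun i => WS b (k i)) _ P hP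
  intro w hw
  choose j hj hjb A hA hw' using hw
  have h1 : w = fun i => X 2 ^ j i * A i := funext hw'
  rw [h1]
  apply wt_zero hH j hjb A hA
  have h2 : ∑ i, k i ≤ ∑ i, j i := Finset.sum_le_sum (fun i _ => hj i)
  omega

end Weight

section Shear

lemma pderiv_X0 : pderiv (0 : Fin 3) (X 0 : S3) = 1 := by simp
lemma pderiv_X1 : pderiv (0 : Fin 3) (X 1 : S3) = 0 := pderiv_X_of_ne (by decide)

lemma pderiv_U2_zero {A : S3} (hA : A ∈ U2 ^ 0) : pderiv (0 : Fin 3) A = 0 := by
  rw [pow_zero, Submodule.mem_one] at hA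
  obtain ⟨r, rfl⟩ := hA
  exact Derivation.map_algebraMap _ _

lemma pderiv_lin {l : S3} (hl : l ∈ U2) :
    ∃ α : ℂ, pderiv (0 : Fin 3) l = C α ∧ sh 1 l = l + α • X 2 := by
  obtain ⟨α, β, rfl⟩ := Submodule.mem_span_pair.1 hl
  refine ⟨α, ?_, ?_⟩
  · rw [map_add, Derivation.map_smul, Derivation.map_smul, pderiv_X0, pderiv_X1, smul_zero,
      add_zero, MvPolynomial.smul_eq_C_mul, mul_one]
  · rw [map_add, map_smul, map_smul, sh_X0, sh_X1, one_smul, smul_add]
    ring

lemma pderiv_U2 {n : ℕ} {A : S3} (hA : A ∈ U2 ^ (n + 1)) : pderiv (0 : Fin 3) A ∈ U2 ^ n := by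
  induction n generalizing A with
  | zero =>
    rw [zero_add, pow_one] at hA
    obtain ⟨α, h1, -⟩ := pderiv_lin hA
    rw [h1, pow_zero, Submodule.mem_one]
    exact ⟨α, rfl⟩
  | succ n ih =>
    rw [pow_succ] at hA
    induction hA using Submodule.mul_induction_on' with
    | mem_mul_mem x hx y hy =>
      obtain ⟨α, h1, -⟩ := pderiv_lin hy
      rw [Derivation.leibniz, h1, smul_eq_mul, smul_eq_mul]
      apply Submodule.add_mem
      · rw [mul_comm, ← MvPolynomial.smul_eq_C_mul]
        exact Submodule.smul_mem _ _ hx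
      · rw [mul_comm, pow_succ]
        exact Submodule.mul_mem_mul (ih hx) hy
    | add x _ y _ hx hy => rw [map_add]; exact Submodule.add_mem _ hx hy

/-- The shear up to order two. -/
lemma sh_order {n : ℕ} {A : S3} (hA : A ∈ U2 ^ n) :
    sh 1 A - (A + X 2 * pderiv (0 : Fin 3) A) ∈ WW n 2 := by
  induction n generalizing A with
  | zero =>
    rw [pderiv_U2_zero hA, mul_zero, add_zero]
    rw [pow_zero, Submodule.mem_one] at hA
    obtain ⟨r, rfl⟩ := hA
    rw [AlgHom.commutes, sub_self]
    exact Submodule.zero_mem _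
  | succ n ih =>
    rw [pow_succ] at hA
    induction hA using Submodule.mul_induction_on' with
    | mem_mul_mem x hx y hy =>
      obtain ⟨α, h1, h2⟩ := pderiv_lin hy
      have h3 := ih hx
      obtain ⟨R, hR⟩ : ∃ R, R = sh 1 x - (x + X 2 * pderiv (0 : Fin 3) x) := ⟨_, rfl⟩
      rw [← hR] at h3
      have h4 : sh 1 x = x + X 2 * pderiv (0 : Fin 3) x + R := by rw [hR]; ring
      have h5 : sh 1 (x * y) - (x * y + X 2 * pderiv (0 : Fin 3) (x * y)) =
          R * y + α • (R * X 2) + α • (X 2 ^ 2 * pderiv (0 : Fin 3) x) := by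
        rw [map_mul, h4, h2, Derivation.leibniz, h1, smul_eq_mul, smul_eq_mul]
        simp only [MvPolynomial.smul_eq_C_mul]
        ring
      rw [h5]
      refine Submodule.add_mem _ (Submodule.add_mem _ (WW_mul_U h3 hy)
        (Submodule.smul_mem _ _ (WW_mono (by omega) (WW_mul_z h3)))) (Submodule.smul_mem _ _ ?_)
      rcases Nat.eq_zero_or_pos n with hn | hn
      · subst hn
        rw [pderiv_U2_zero hx, mul_zero]
        exact Submodule.zero_mem _
      · obtain ⟨n', rfl⟩ : ∃ n', n = n' + 1 := ⟨n - 1, by omega⟩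
        exact zA_mem_WW le_rfl (by omega) (pderiv_U2 hx)
    | add x _ y _ hx hy =>
      have h1 : sh 1 (x + y) - (x + y + X 2 * pderiv (0 : Fin 3) (x + y)) =
          (sh 1 x - (x + X 2 * pderiv (0 : Fin 3) x)) +
          (sh 1 y - (y + X 2 * pderiv (0 : Fin 3) y)) := by
        rw [map_add, map_add]; ring
      rw [h1]
      exact Submodule.add_mem _ hx hy

lemma sh_one_zpow (j : ℕ) (A : S3) : sh 1 (X 2 ^ j * A) = X 2 ^ j * sh 1 A := by
  rw [map_mul, map_pow, sh_X2]

/-- Multiplication by `X 2 ^ j`. -/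
lemma WW_zpow_mul {n k j : ℕ} {P : S3} (hP : P ∈ WW n k) : X 2 ^ j * P ∈ WW (n + j) (k + j) := by
  induction j with
  | zero => simpa using hP
  | succ j ih =>
    have h1 : (X 2 : S3) ^ (j + 1) * P = X 2 ^ j * P * X 2 := by ring
    rw [h1]
    exact WW_mul_z ih

end Shear

end Vale.Agent.P181.T3R.H959
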