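import Vale.Agent.P181.R2.H959.FDefs

set_option autoImplicit false

namespace Vale.Agent.P181.FR

/-- Weakly decreasing sequences of `m` natural numbers with sum `s`, that is the partitions of `s`
with at most `m` rows. -/
def Parts (m s : ℕ) : Finset (Fin m → Fin (s + 1)) :=
  Finset.univ.filter (fun lam => (∀ i j, i ≤ j → lam j ≤ lam i) ∧ ∑ i, (lam i : ℕ) = s)

end Vale.Agent.P181.FR
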