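import Vale.Agent.P181.R2.H959.Basic

/-!
P181, three rows: a symmetric form vanishing on the diagonal at all products of chart lines
vanishes on all binary forms.
-/

set_option autoImplicit false

open MvPolynomial

namespace Vale.Agent.P181.T3R.H959

open Vale.Agent.P181 Vale.Agent.P181.H536 Vale.Agent.P181.H280

/-- The binary form of degree `n` with the coefficients of `q`. -/
noncomputable def hm (n : ℕ) (q : Polynomial ℂ) : S3 :=
  ∑ k ∈ Finset.range (n + 1), q.coeff k • ((X 0 : S3) ^ (n - k) * X 1 ^ k)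

lemma hm_add (n : ℕ) (q q' : Polynomial ℂ) : hm n (q + q') = hm n q + hm n q' := by
  rw [hm, hm, hm, ← Finset.sum_add_distrib]
  refine Finset.sum_congr rfl (fun k _ => ?_)
  rw [Polynomial.coeff_add, add_smul]

lemma hm_C_mul (n : ℕ) (c : ℂ) (q : Polynomial ℂ) : hm n (Polynomial.C c * q) = c • hm n q := by
  rw [hm, hm, Finset.smul_sum]
  refine Finset.sum_congr rfl (fun k _ => ?_)
  rw [Polynomial.coeff_C_mul, mul_smul]

lemma hm_C (n : ℕ) (c : ℂ) : hm n (Polynomial.C c) = c • (X 0 : S3) ^ n := by
  rw [hm, Finset.sum_range_succ', Finset.sum_eq_zero, zero_add, Polynomial.coeff_C_zero]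
  · simp
  · intro k _
    rw [Polynomial.coeff_C_ne_zero (Nat.succ_ne_zero k), zero_smul]

lemma hm_succ (n : ℕ) {q : Polynomial ℂ} (hq : q.natDegree ≤ n) :
    hm (n + 1) q = X 0 * hm n q := by
  rw [hm, Finset.sum_range_succ, Polynomial.coeff_eq_zero_of_natDegree_lt (by omega), zero_smul,
    add_zero, hm, Finset.mul_sum]
  refine Finset.sum_congr rfl (fun k hk => ?_)
  rw [Finset.mem_range] at hk
  rw [mul_smul_comm, Nat.sub_add_comm (by omega), pow_succ']
  ring_nf

lemma hm_X_mul (n : ℕ) (q : Polynomial ℂ) : hm (n + 1) (Polynomial.X * q) = X 1 * hm n q := by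
  rw [hm, Finset.sum_range_succ', Polynomial.coeff_X_mul_zero, zero_smul, add_zero, hm,
    Finset.mul_sum]
  refine Finset.sum_congr rfl (fun k hk => ?_)
  rw [Polynomial.coeff_X_mul, mul_smul_comm, Nat.add_sub_add_right, pow_succ']
  ring_nf

/-- Every binary form has coefficients. -/
lemma exists_hm {n : ℕ} {A : S3} (hA : A ∈ U2 ^ n) :
    ∃ q : Polynomial ℂ, q.natDegree ≤ n ∧ A = hm n q := by
  induction n generalizing A with
  | zero =>
    rw [pow_zero, Submodule.mem_one] at hA
    obtain ⟨r, rfl⟩ := hA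
    refine ⟨Polynomial.C r, by simp, ?_⟩
    rw [hm_C, pow_zero, Algebra.algebraMap_eq_smul_one]
  | succ n ih =>
    rw [pow_succ] at hA
    induction hA using Submodule.mul_induction_on' with
    | mem_mul_mem x hx y hy =>
      obtain ⟨q, hq, rfl⟩ := ih hx
      obtain ⟨α, β, rfl⟩ := Submodule.mem_span_pair.1 hy
      refine ⟨Polynomial.C α * q + Polynomial.C β * (Polynomial.X * q), ?_, ?_⟩
      · refine (Polynomial.natDegree_add_le _ _).trans (max_le ?_ ?_)
        · exact (Polynomial.natDegree_C_mul_le _ _).trans (by omega)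
        · refine (Polynomial.natDegree_C_mul_le _ _).trans ?_
          refine (Polynomial.natDegree_mul_le).trans ?_
          rw [Polynomial.natDegree_X]
          omega
      · rw [hm_add, hm_C_mul, hm_C_mul, hm_succ n hq, hm_X_mul]
        simp only [MvPolynomial.smul_eq_C_mul]
        ring
    | add x _ y _ hx hy =>
      obtain ⟨q, hq, rfl⟩ := hx
      obtain ⟨q', hq', rfl⟩ := hy
      exact ⟨q + q', (Polynomial.natDegree_add_le _ _).trans (max_le hq hq'), (hm_add _ _ _).symm⟩

/-- Product of chart lines. -/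
noncomputable def Pr (M : Multiset ℂ) : S3 := (M.map ln).prod

lemma Pr_cons (x : ℂ) (M : Multiset ℂ) : Pr (x ::ₘ M) = ln x * Pr M := by
  rw [Pr, Multiset.map_cons, Multiset.prod_cons]
  rfl

lemma Pr_zero : Pr 0 = 1 := by rw [Pr, Multiset.map_zero, Multiset.prod_zero]

lemma Pr_mem (M : Multiset ℂ) : Pr M ∈ U2 ^ M.card := by
  induction M using Multiset.induction with
  | empty =>
    rw [Pr_zero, Multiset.card_zero, pow_zero]
    exact Submodule.one_le.1 le_rfl
  | cons x M ih =>
    rw [Pr_cons, Multiset.card_cons, pow_succ']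
    exact Submodule.mul_mem_mul (ln_mem_U2 x) ih

/-- A binary form with non zero first coefficient splits into chart lines. -/
lemma hm_split (n : ℕ) : ∀ q : Polynomial ℂ, q.natDegree ≤ n → q.coeff 0 ≠ 0 →
    ∃ M : Multiset ℂ, M.card = n ∧ hm n q = q.coeff 0 • Pr M := by
  induction n with
  | zero =>
    intro q hq _
    refine ⟨0, Multiset.card_zero, ?_⟩
    rw [Pr_zero, hm, zero_add, Finset.sum_range_one]
    simp
  | succ n ih =>
    intro q hq h0
    by_cases hd : q.natDegree ≤ n
    · obtain ⟨M, hM, h1⟩ := ih q hd h0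
      refine ⟨0 ::ₘ M, by rw [Multiset.card_cons, hM], ?_⟩
      rw [hm_succ n hd, h1, Pr_cons, ln, zero_smul, add_zero, mul_smul_comm]
    · have hd' : q.natDegree = n + 1 := by omega
      have hdeg : q.degree ≠ 0 := by
        intro h
        have h' : q.degree = ((0 : ℕ) : WithBot ℕ) := h
        have h2 := Polynomial.natDegree_eq_of_degree_eq_some h'
        omega
      obtain ⟨r, hr⟩ := IsAlgClosed.exists_root q hdeg
      obtain ⟨q', hq'⟩ := Polynomial.dvd_iff_isRoot.2 hr
      have hq0 : q' ≠ 0 := by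
        rintro rfl
        rw [mul_zero] at hq'
        rw [hq', Polynomial.coeff_zero] at h0
        exact h0 rfl
      have hdq' : q'.natDegree ≤ n := by
        have h1 : q.natDegree = (Polynomial.X - Polynomial.C r).natDegree + q'.natDegree := by
          rw [hq', Polynomial.natDegree_mul (Polynomial.X_sub_C_ne_zero r) hq0]
        rw [Polynomial.natDegree_X_sub_C] at h1
        omega
      have hc0 : q.coeff 0 = -r * q'.coeff 0 := by
        rw [hq', Polynomial.mul_coeff_zero]
        simp
      have hr0 : r ≠ 0 := by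
        rintro rfl
        rw [hc0, neg_zero, zero_mul] at h0
        exact h0 rfl
      have hq'0 : q'.coeff 0 ≠ 0 := by
        intro h
        rw [hc0, h, mul_zero] at h0
        exact h0 rfl
      obtain ⟨M, hM, h1⟩ := ih q' hdq' hq'0
      refine ⟨(-r⁻¹) ::ₘ M, by rw [Multiset.card_cons, hM], ?_⟩
      have h2 : q = Polynomial.C (-r) * q' + Polynomial.X * q' := by
        rw [hq', Polynomial.C_neg]
        ring
      have h3 : hm (n + 1) q = (-r) • (X 0 * hm n q') + X 1 * hm n q' := by
        conv_lhs => rw [h2]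
        rw [hm_add, hm_C_mul, hm_succ n hdq', hm_X_mul]
      rw [h3, h1, hc0, Pr_cons, ln]
      have h4 : (X 1 : S3) = (r * r⁻¹) • X 1 := by rw [mul_inv_cancel₀ hr0, one_smul]
      conv_lhs => rw [h4]
      simp only [MvPolynomial.smul_eq_C_mul, map_neg, map_mul]
      ring

lemma IsSymm.zero_of_diag {m : ℕ} {F : Fm m} (hs : IsSymm F) (S : Submodule ℂ S3)
    (h : ∀ x ∈ S, F (fun _ => x) = 0) (y : Fin m → S3) (hy : ∀ i, y i ∈ S) : F y = 0 := by
  have h1 := polar F S h y hy
  rw [Finset.sum_congr rfl (fun π _ => hs π y), Finset.sum_const, Finset.card_univ,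
    Fintype.card_perm, Fintype.card_fin, nsmul_eq_mul, mul_eq_zero] at h1
  rcases h1 with h1 | h1
  · exact absurd (Nat.cast_eq_zero.1 h1) (Nat.factorial_ne_zero m)
  · exact h1

/-- A symmetric form vanishing on the diagonal at all products of chart lines vanishes on all
binary forms. -/
theorem van_of_lines {m n : ℕ} {F : Fm m} (hs : IsSymm F)
    (h : ∀ M : Multiset ℂ, M.card = n → F (fun _ => Pr M) = 0) (y : Fin m → S3)
    (hy : ∀ i, y i ∈ U2 ^ n) : F y = 0 := by
  apply IsSymm.zero_of_diag hs (U2 ^ n) _ y hy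
  intro x hx
  obtain ⟨q, hq, rfl⟩ := exists_hm hx
  have h1 : ∀ ε : ℂ, ε ≠ -q.coeff 0 →
      (pl F (fun _ => hm n q) (fun _ => (X 0 : S3) ^ n)).eval ε = 0 := by
    intro ε hε
    rw [pl_eval]
    have h2 : hm n q + ε • (X 0 : S3) ^ n = hm n (q + Polynomial.C ε) := by
      rw [hm_add, hm_C]
    rw [h2]
    obtain ⟨M, hM, h3⟩ := hm_split n (q + Polynomial.C ε) (by
      refine (Polynomial.natDegree_add_le _ _).trans (max_le hq ?_)
      rw [Polynomial.natDegree_C]; exact Nat.zero_le _) (by
      rw [Polynomial.coeff_add, Polynomial.coeff_C_zero]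
      intro h4
      apply hε
      linear_combination h4)
    rw [h3, MultilinearMap.map_smul_univ, h M hM, smul_zero]
  have h2 : pl F (fun _ => hm n q) (fun _ => (X 0 : S3) ^ n) = 0 := by
    apply Polynomial.eq_zero_of_infinite_isRoot
    apply Set.Infinite.mono (s := ({-q.coeff 0} : Set ℂ)ᶜ)
    · intro ε hε
      exact h1 ε hε
    · exact (Set.finite_singleton _).infinite_compl
  have h3 := pl_eval F (fun _ => hm n q) (fun _ => (X 0 : S3) ^ n) 0
  rw [h2, Polynomial.eval_zero] at h3
  simpa using h3.symm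

end Vale.Agent.P181.T3R.H959
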