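import Vale.Agent.P181.R2.H959.WDefs

set_option autoImplicit false

namespace Vale.Agent.P181.FR

open Vale.Agent.P181 Vale.Agent.P181.H280

/-- The minor of the points in `S` and the first `i` coordinates. -/
noncomputable def mnr {B m i : ℕ} (him : i ≤ m) (S : Finset (Fin B)) (p : Fin B → Fin m → ℂ) : ℂ :=
  if h : S.card = i then
    Matrix.det (Matrix.of fun j k : Fin i => p (S.orderEmbOfFin h j) (Fin.castLE him k)) else 0

/-- The square of the product of complementary minors. -/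
noncomputable def YS {B m i : ℕ} (him : i ≤ m) (S : Finset (Fin B)) (p : Fin B → Fin m → ℂ) : ℂ :=
  (mnr him S p * mnr him Sᶜ p) ^ 2

/-- The `i`-subsets of the `2 i` points. -/
def sub (i : ℕ) : Finset (Finset (Fin (2 * i - 1 + 1))) := Finset.powersetCard i Finset.univ

noncomputable def F1 {m i : ℕ} (him : i ≤ m) (p : Fin (2 * i - 1 + 1) → Fin m → ℂ) : ℂ :=
  ∑ S ∈ sub i, YS him S p

noncomputable def F2 {m i : ℕ} (him : i ≤ m) (p : Fin (2 * i - 1 + 1) → Fin m → ℂ) : ℂ :=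
  ∑ S ∈ sub i, ∏ S' ∈ (sub i).erase S, YS him S' p

noncomputable def F3 {m i : ℕ} (him : i ≤ m) (p : Fin (2 * i - 1 + 1) → Fin m → ℂ) : ℂ :=
  ∏ S ∈ sub i, YS him S p

/-- The curve `(t^La, t^(La-1), 1, 0, ...)`. -/
def curve (m La : ℕ) (t : ℂ) : Fin m → ℂ := fun k =>
  if (k : ℕ) = 0 then t ^ La else if (k : ℕ) = 1 then t ^ (La - 1) else if (k : ℕ) = 2 then 1 else 0

end Vale.Agent.P181.FR
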