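import Vale.Agent.P181.R2.H959.VSeven
import Vale.Agent.P181.R2.H424.V9

set_option autoImplicit false

open scoped TensorProduct

namespace Vale.Agent.P181.VT

open Vale.Agent.P181 Vale.Agent.P181.H280 Vale.Agent.P181.FR

/-- Foulkes' inequality for `b ≥ (1 + δ) a` and `λ_m ≥ κ a b`, all walls included. -/
theorem nine (n : ℕ) {δ κ : ℝ} (hδ : 0 < δ) (hκ : 0 < κ) : ∃ A : ℕ, ∀ (a b : ℕ)
    (lam : Fin (n + 3) → ℕ), A ≤ a → (1 + δ) * a ≤ b → κ * (a * b) ≤ lam (Fin.last _) →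
    plethMult a b (n + 3) lam ≤ plethMult b a (n + 3) lam :=
  v9_of seven n hδ hκ

end Vale.Agent.P181.VT
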